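import Vale.Agent.P037.Final

open Vale.Agent.P037

namespace Vale.Agent.Results.P037.Disproof

/-- The polynomial ordered matrix-removal conjecture is false: it fails for the explicit `6 × 6`
pattern `H6`, with an exponential lower bound. -/
theorem result :
    (¬ ∀ (k : ℕ) (H : Matrix (Fin k) (Fin k) Bool),
      ∃ c : ℝ, 0 < c ∧ ∃ C : ℝ, 0 < C ∧ ∀ n : ℕ, 1 ≤ n → ∀ ε : ℝ, 0 < ε → ε < 1 →
        ∀ A : Matrix (Fin n) (Fin n) Bool, ε ≤ distFree H A →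
          c * ε ^ C * (n : ℝ) ^ (2 * k) ≤ (numCopies H A : ℝ)) ∧
    (¬ ∃ c : ℝ, 0 < c ∧ ∃ C : ℝ, 0 < C ∧ ∀ n : ℕ, 1 ≤ n → ∀ ε : ℝ, 0 < ε → ε < 1 →
        ∀ A : Matrix (Fin n) (Fin n) Bool, ε ≤ distFree H6 A →
          c * ε ^ C * (n : ℝ) ^ (2 * 6) ≤ (numCopies H6 A : ℝ)) ∧
    (∀ W : ℕ, 1 ≤ W → ∃ n : ℕ, 1 ≤ n ∧ ∃ A : Matrix (Fin n) (Fin n) Bool,
      1 / (18 * ((W : ℝ) + 1)) ^ 2 ≤ distFree H6 A ∧
      (numCopies H6 A : ℝ) ≤ (1 / 2) ^ W * (n : ℝ) ^ (2 * 6)) :=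
  ⟨fun h => main.2 (h 6 H6), main.2, main.1⟩

end Vale.Agent.Results.P037.Disproof
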