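import Vale.Agent.P037.Blow2

open Vale.Agent.P037

namespace Vale.Agent.Results.P037.DisproofAllLarge

/-- The polynomial ordered matrix-removal conjecture is false, and it fails for the explicit
pattern `H6` at every small `ε` and for every large `n`. -/
theorem result :
    (¬ ∀ (k : ℕ) (H : Matrix (Fin k) (Fin k) Bool),
      ∃ c : ℝ, 0 < c ∧ ∃ C : ℝ, 0 < C ∧ ∀ n : ℕ, 1 ≤ n → ∀ ε : ℝ, 0 < ε → ε < 1 →
        ∀ A : Matrix (Fin n) (Fin n) Bool, ε ≤ distFree H A →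
          c * ε ^ C * (n : ℝ) ^ (2 * k) ≤ (numCopies H A : ℝ)) ∧
    (∀ c : ℝ, 0 < c → ∀ C : ℝ, ∃ ε₀ : ℝ, 0 < ε₀ ∧ ∀ ε : ℝ, 0 < ε → ε < ε₀ →
      ∀ n : ℕ, (2 : ℝ) ^ (1 / Real.sqrt ε) ≤ n →
        ∃ A : Matrix (Fin n) (Fin n) Bool, ε ≤ distFree H6 A ∧
          (numCopies H6 A : ℝ) < c * ε ^ C * (n : ℝ) ^ 12) ∧
    (∀ ε : ℝ, 0 < ε → ε ≤ 1 / 5184 → ∀ n : ℕ, (2 : ℝ) ^ (1 / Real.sqrt ε) ≤ n →
      ∃ A : Matrix (Fin n) (Fin n) Bool, ε ≤ distFree H6 A ∧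
        (numCopies H6 A : ℝ) ≤ 4 * (1 / 2 : ℝ) ^ (1 / (36 * Real.sqrt ε)) * (n : ℝ) ^ 12) :=
  ⟨fun h => main.2 (h 6 H6), all_large_poly, all_large⟩

end Vale.Agent.Results.P037.DisproofAllLarge
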